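import Mathlib

namespace Vale.Agent.Lib.P201

variable {K : Type*} [Semiring K] {G : Type*}

/-- If the classes `P`, `Q` are such that a product of a `P`-element of the support of `f` with a
`Q`-element of the support of `g` can only be written as a product of such elements, then
`f * g = 0` implies that the product of the two slices vanishes. -/
theorem filter_mul_filter_eq_zero [Mul G] (f g : MonoidAlgebra K G) (P Q : G → Prop)
    [DecidablePred P] [DecidablePred Q]
    (h : ∀ x ∈ f.coeff.support, ∀ y ∈ g.coeff.support, ∀ x' ∈ f.coeff.support,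
      ∀ y' ∈ g.coeff.support, P x → Q y → x * y = x' * y' → P x' ∧ Q y')
    (hfg : f * g = 0) :
    MonoidAlgebra.ofCoeff (f.coeff.filter P) * MonoidAlgebra.ofCoeff (g.coeff.filter Q) = 0 := by
  classical
  apply MonoidAlgebra.ext
  ext z
  rw [MonoidAlgebra.coeff_mul]
  have hz : (f * g).coeff z = 0 := by rw [hfg]; rfl
  rw [MonoidAlgebra.coeff_mul] at hz
  unfold Finsupp.sum at hz ⊢
  beta_reduce at hz
  simp only [MonoidAlgebra.coeff_zero, Finsupp.coe_zero,
    Pi.zero_apply, Finsupp.support_filter, Finset.sum_filter]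
  by_cases hex : ∃ x0 ∈ f.coeff.support, ∃ y0 ∈ g.coeff.support, P x0 ∧ Q y0 ∧ x0 * y0 = z
  · obtain ⟨x0, hx0, y0, hy0, hP, hQ, hxy⟩ := hex
    refine Eq.trans ?_ hz
    apply Finset.sum_congr rfl
    intro x hx
    by_cases hPx : P x
    · rw [if_pos hPx]
      apply Finset.sum_congr rfl
      intro y hy
      by_cases hQy : Q y
      · simp [hQy, hPx]
      · have hne : x * y ≠ z := fun hxyz =>
          hQy (h x0 hx0 y0 hy0 x hx y hy hP hQ (hxy.trans hxyz.symm)).2
        simp [hQy, hne]
    · rw [if_neg hPx]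
      symm
      apply Finset.sum_eq_zero
      intro y hy
      have hne : x * y ≠ z := fun hxyz =>
        hPx (h x0 hx0 y0 hy0 x hx y hy hP hQ (hxy.trans hxyz.symm)).1
      simp [hne]
  · apply Finset.sum_eq_zero
    intro x hx
    by_cases hPx : P x
    · rw [if_pos hPx]
      apply Finset.sum_eq_zero
      intro y hy
      by_cases hQy : Q y
      · rw [if_pos hQy]
        by_cases hxy : x * y = z
        · exact absurd ⟨x, hx, y, hy, hPx, hQy, hxy⟩ hex
        · rw [if_neg hxy]
      · rw [if_neg hQy]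
    · rw [if_neg hPx]

/-- Translating a zero-divisor pair so that both supports contain the identity. -/
theorem exists_translate [Group G] (f g : MonoidAlgebra K G) (hf : f ≠ 0) (hg : g ≠ 0)
    (hfg : f * g = 0) :
    ∃ f1 g1 : MonoidAlgebra K G, f1 * g1 = 0 ∧ f1.coeff 1 ≠ 0 ∧ g1.coeff 1 ≠ 0 ∧
      f1.coeff.support.card = f.coeff.support.card ∧
      g1.coeff.support.card = g.coeff.support.card := by
  classical
  have hfs : f.coeff.support.Nonempty := by
    rw [Finsupp.support_nonempty_iff]
    simpa using hf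
  have hgs : g.coeff.support.Nonempty := by
    rw [Finsupp.support_nonempty_iff]
    simpa using hg
  obtain ⟨x0, hx0⟩ := hfs
  obtain ⟨y0, hy0⟩ := hgs
  have e1 : ∀ h : G, (MonoidAlgebra.single x0⁻¹ (1 : K) * f).coeff h = f.coeff (x0 * h) := by
    intro h
    rw [MonoidAlgebra.coeff_single_mul_apply]
    simp
  have e2 : ∀ h : G, (g * MonoidAlgebra.single y0⁻¹ (1 : K)).coeff h = g.coeff (h * y0) := by
    intro h
    rw [MonoidAlgebra.coeff_mul_single_apply]
    simp
  refine ⟨MonoidAlgebra.single x0⁻¹ 1 * f, g * MonoidAlgebra.single y0⁻¹ 1, ?_, ?_, ?_, ?_, ?_⟩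
  · calc MonoidAlgebra.single x0⁻¹ (1 : K) * f * (g * MonoidAlgebra.single y0⁻¹ 1)
        = MonoidAlgebra.single x0⁻¹ (1 : K) * (f * g) * MonoidAlgebra.single y0⁻¹ 1 := by
          simp only [mul_assoc]
      _ = 0 := by rw [hfg]; simp
  · rw [e1, mul_one]
    exact Finsupp.mem_support_iff.mp hx0
  · rw [e2, one_mul]
    exact Finsupp.mem_support_iff.mp hy0
  · refine Finset.card_bij (fun h _ => x0 * h) ?_ ?_ ?_
    · intro a ha
      rw [Finsupp.mem_support_iff] at ha ⊢
      rwa [e1] at ha
    · intro a _ b _ hab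
      exact mul_left_cancel hab
    · intro b hb
      refine ⟨x0⁻¹ * b, ?_, by simp⟩
      rw [Finsupp.mem_support_iff] at hb ⊢
      rw [e1]
      simpa using hb
  · refine Finset.card_bij (fun h _ => h * y0) ?_ ?_ ?_
    · intro a ha
      rw [Finsupp.mem_support_iff] at ha ⊢
      rwa [e2] at ha
    · intro a _ b _ hab
      exact mul_right_cancel hab
    · intro b hb
      refine ⟨b * y0⁻¹, ?_, by simp⟩
      rw [Finsupp.mem_support_iff] at hb ⊢
      rw [e2]
      simpa using hb

/-- A zero-divisor pair supported in a subgroup `N` with `K[N]` free of zero divisors is trivial. -/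
theorem eq_zero_of_support_le [Group G] (N : Subgroup G)
    (hN : NoZeroDivisors (MonoidAlgebra K N))
    (f g : MonoidAlgebra K G) (hf : ∀ x ∈ f.coeff.support, x ∈ N)
    (hg : ∀ x ∈ g.coeff.support, x ∈ N) (hfg : f * g = 0) : f = 0 ∨ g = 0 := by
  classical
  have hinj : Function.Injective (N.subtype : N → G) := Subtype.val_injective
  set f' : MonoidAlgebra K N :=
    MonoidAlgebra.ofCoeff (Finsupp.comapDomain N.subtype f.coeff hinj.injOn) with hf'
  set g' : MonoidAlgebra K N :=
    MonoidAlgebra.ofCoeff (Finsupp.comapDomain N.subtype g.coeff hinj.injOn) with hg'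
  have hff : MonoidAlgebra.mapDomainRingHom K N.subtype f' = f := by
    apply MonoidAlgebra.ext
    show Finsupp.mapDomain N.subtype (Finsupp.comapDomain N.subtype f.coeff hinj.injOn) = f.coeff
    apply Finsupp.mapDomain_comapDomain _ hinj
    intro x hx
    exact ⟨⟨x, hf x (Finset.mem_coe.mp hx)⟩, rfl⟩
  have hgg : MonoidAlgebra.mapDomainRingHom K N.subtype g' = g := by
    apply MonoidAlgebra.ext
    show Finsupp.mapDomain N.subtype (Finsupp.comapDomain N.subtype g.coeff hinj.injOn) = g.coeff
    apply Finsupp.mapDomain_comapDomain _ hinj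
    intro x hx
    exact ⟨⟨x, hg x (Finset.mem_coe.mp hx)⟩, rfl⟩
  have hprod : f' * g' = 0 := by
    have hmap : MonoidAlgebra.mapDomainRingHom K N.subtype (f' * g') = 0 := by
      rw [map_mul, hff, hgg, hfg]
    have hinj2 : Function.Injective (MonoidAlgebra.mapDomainRingHom K N.subtype :
        MonoidAlgebra K N → MonoidAlgebra K G) := MonoidAlgebra.mapDomain_injective hinj
    apply hinj2
    rw [hmap, map_zero]
  rcases hN.eq_zero_or_eq_zero_of_mul_eq_zero hprod with h0 | h0
  · left
    rw [← hff, h0, map_zero]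
  · right
    rw [← hgg, h0, map_zero]

end Vale.Agent.Lib.P201
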